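import Vale.Agent.P086.Key

namespace Vale.Agent.Results.P086.A_full

open Vale.Agent.P086

theorem result :
    (∃ m n : ℕ, 2 ≤ m ∧ 2 ≤ n ∧ m ≠ n ∧
      GroupFactorsIsomorphic (FreeGroup (Fin m)) (FreeGroup (Fin n))) ∧
    (∀ m n : ℕ, 3 ≤ m → 3 ≤ n →
      GroupFactorsIsomorphic (FreeGroup (Fin m)) (FreeGroup (Fin n))) ∧
    (∀ n : ℕ, 3 ≤ n → GroupFactorsIsomorphic (FreeGroup (Fin n)) (FreeGroup ℕ)) := by
  have h : ∀ m n : ℕ, 3 ≤ m → 3 ≤ n →
      GroupFactorsIsomorphic (FreeGroup (Fin m)) (FreeGroup (Fin n)) := fun m n hm hn =>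
    isomorphic_of_three (Fin.castLE_injective hm) (Fin.castLE_injective hn)
  exact ⟨⟨3, 4, by norm_num, by norm_num, by norm_num, h 3 4 le_rfl (by norm_num)⟩, h,
    fun n hn => isomorphic_of_three (Fin.castLE_injective hn) Fin.val_injective⟩

end Vale.Agent.Results.P086.A_full
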